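import Mathlib
import Vale.Agent.Lib.P153.Defs
import Vale.Agent.Lib.P153.Main

/-!
# P153: the mean height is the side observable of the interface

For the uniform odd-integer Lipschitz height function with boundary values `+1` on `Ap` and `-1`
on `Am`, on a finite connected graph whose triangle complex has trivial first `ℤ/2` cohomology:
conditionally on the set of vertices on the `Am` side of the interface, the mean of `h x` is
exactly `-1` on that side and `+1` on the other side; hence
`E[h x] = 1 - 2 P(x is on the Am side of the interface)`.
-/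

namespace Vale.Agent.Results.P153.MeanHeightSide

open Vale.Agent.Lib.P153

open Classical in
theorem result {V : Type*} [Fintype V] (G : SimpleGraph V) (Ap Am : Set V)
    (hconn : G.Connected) (hsc : TriangleSimplyConnected G)
    (hAp : ArcConnected G Ap) (hAm : ArcConnected G Am) (hdisj : Disjoint Ap Am)
    (hedge : ∃ a ∈ Ap, ∃ b ∈ Am, G.Adj a b) :
    ∃ S : Finset (V → ℤ), (∀ h, h ∈ S ↔ IsHeight G Ap Am h) ∧ S.Nonempty ∧
      (∀ (M : Set V) (x : V),
        ∑ h ∈ S.filter (fun h => ∀ v, MinusSide G Ap Am h v ↔ v ∈ M), h x =
          (if x ∈ M then -1 else 1) *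
            ((S.filter (fun h => ∀ v, MinusSide G Ap Am h v ↔ v ∈ M)).card : ℤ)) ∧
      ∀ x : V, (∑ h ∈ S, (h x : ℝ)) / S.card =
        1 - 2 * (((S.filter (fun h => MinusSide G Ap Am h x)).card : ℝ) / S.card) := by
  have hne : Ap.Nonempty := by
    obtain ⟨a, ha, _⟩ := hedge
    exact ⟨a, ha⟩
  have hfin : {h | IsHeight G Ap Am h}.Finite := finite_heights hconn hne
  set S : Finset (V → ℤ) := hfin.toFinset with hS
  have hmem : ∀ h, h ∈ S ↔ IsHeight G Ap Am h := by
    intro h; rw [hS, Set.Finite.mem_toFinset]; rfl
  have hSne : S.Nonempty := ⟨_, (hmem _).mpr (exists_height hdisj)⟩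
  refine ⟨S, hmem, hSne, ?_, ?_⟩
  · intro M x
    set T := S.filter (fun h => ∀ v, MinusSide G Ap Am h v ↔ v ∈ M) with hT
    by_cases hx : x ∈ M
    · rw [if_pos hx]
      have := two_mul_sum_eq T (flipM G Ap Am)
        (by
          intro h hh
          rw [hT, Finset.mem_filter] at hh ⊢
          have hv := (hmem h).mp hh.1
          exact ⟨(hmem _).mpr (isHeight_flipM hv), fun v => (minusSide_flipM hv v).trans (hh.2 v)⟩)
        (by
          intro h hh
          rw [hT, Finset.mem_filter] at hh
          exact flipM_flipM ((hmem h).mp hh.1))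
        (-2) x
        (by
          intro h hh
          rw [hT, Finset.mem_filter] at hh
          exact flipM_of_mem ((hh.2 x).mpr hx))
      linarith
    · rw [if_neg hx]
      have := two_mul_sum_eq T (flipL G Ap Am)
        (by
          intro h hh
          rw [hT, Finset.mem_filter] at hh ⊢
          have hv := (hmem h).mp hh.1
          exact ⟨(hmem _).mpr (isHeight_flipL hv),
            fun v => (minusSide_flipL hv hsc hAp hAm hedge v).trans (hh.2 v)⟩)
        (by
          intro h hh
          rw [hT, Finset.mem_filter] at hh
          exact flipL_flipL ((hmem h).mp hh.1) hsc hAp hAm hedge)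
        2 x
        (by
          intro h hh
          rw [hT, Finset.mem_filter] at hh
          exact flipL_of_not_mem (fun hm => hx ((hh.2 x).mp hm)))
      linarith
  · intro x
    set T1 := S.filter (fun h => MinusSide G Ap Am h x) with hT1
    set T2 := S.filter (fun h => ¬ MinusSide G Ap Am h x) with hT2
    have h1 := two_mul_sum_eq T1 (flipM G Ap Am)
        (by
          intro h hh
          rw [hT1, Finset.mem_filter] at hh ⊢
          have hv := (hmem h).mp hh.1
          exact ⟨(hmem _).mpr (isHeight_flipM hv), (minusSide_flipM hv x).mpr hh.2⟩)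
        (by
          intro h hh
          rw [hT1, Finset.mem_filter] at hh
          exact flipM_flipM ((hmem h).mp hh.1))
        (-2) x
        (by
          intro h hh
          rw [hT1, Finset.mem_filter] at hh
          exact flipM_of_mem hh.2)
    have h2 := two_mul_sum_eq T2 (flipL G Ap Am)
        (by
          intro h hh
          rw [hT2, Finset.mem_filter] at hh ⊢
          have hv := (hmem h).mp hh.1
          exact ⟨(hmem _).mpr (isHeight_flipL hv),
            fun hm => hh.2 ((minusSide_flipL hv hsc hAp hAm hedge x).mp hm)⟩)
        (by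
          intro h hh
          rw [hT2, Finset.mem_filter] at hh
          exact flipL_flipL ((hmem h).mp hh.1) hsc hAp hAm hedge)
        2 x
        (by
          intro h hh
          rw [hT2, Finset.mem_filter] at hh
          exact flipL_of_not_mem hh.2)
    have hsum : ∑ h ∈ S, h x = ∑ h ∈ T1, h x + ∑ h ∈ T2, h x :=
      (Finset.sum_filter_add_sum_filter_not S _ _).symm
    have hcard : (S.card : ℤ) = T1.card + T2.card := by
      have := Finset.card_filter_add_card_filter_not (s := S) (fun h => MinusSide G Ap Am h x)
      rw [← this]; push_cast; rfl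
    have hZ : ∑ h ∈ S, h x = (S.card : ℤ) - 2 * T1.card := by
      rw [hsum, hcard]; linarith
    have hR : (∑ h ∈ S, (h x : ℝ)) = (S.card : ℝ) - 2 * T1.card := by
      have := congrArg (fun z : ℤ => (z : ℝ)) hZ
      push_cast at this
      exact this
    have hpos : (0:ℝ) < S.card := by exact_mod_cast Finset.card_pos.mpr hSne
    rw [hR]
    field_simp

end Vale.Agent.Results.P153.MeanHeightSide
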